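import Mathlib
import Vale.Agent.P252.Defs
import Vale.Agent.P252.Glue

/-!
# P252: the affine Bernstein problem fails in every dimension `n ≥ 10`

For every `n ≥ 10` there is a smooth function `u` on all of `ℝⁿ` with positive definite Hessian
which solves the affine maximal equation at every point and is not a quadratic polynomial.
(The graph of a function defined on all of `ℝⁿ` is Euclidean complete.)
-/

namespace Vale.Agent.Results.P252.EntireHighDim

open scoped ContDiff
open Vale.Agent.P252

/-- For every `n ≥ 10` there is `u ∈ C^∞(ℝⁿ)` with positive definite Hessian everywhere, solving the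
affine maximal equation everywhere, which is not of the form `½ xᵀA x + b·x + c`. -/
theorem result : ∀ n : ℕ, 10 ≤ n → ∃ u : (Fin n → ℝ) → ℝ,
    ContDiff ℝ ∞ u ∧ (∀ x, (hess u x).PosDef) ∧ (∀ x, AffineMaximalAt u x) ∧
    ¬ ∃ (A : Matrix (Fin n) (Fin n) ℝ) (b : Fin n → ℝ) (c : ℝ),
      ∀ x, u x = 1 / 2 * (x ⬝ᵥ (A.mulVec x)) + b ⬝ᵥ x + c :=
  fun n hn => main n hn

end Vale.Agent.Results.P252.EntireHighDim
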